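import Vale.Agent.P207.N4.H478.Ratio
import Vale.Agent.P207.N4.H709.DetR

/-!
# P207: the rates of the unstable derivative from pointwise pinching and the determinant

`det_ratesK` : if `c(x) ≤ -K(x) ≤ ρ² c(x)` with `(m - 1) (ρ² - 2) < ρ` and the volume grows like
`exp (h t)`, then the norms of the unstable derivative grow at least like `exp (a' t)` and at most
like `exp (b' t)` with `b' < 2 a'`.
-/

open Module Set Filter Topology Metric MeasureTheory
open scoped ContDiff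

set_option linter.unusedSectionVars false

noncomputable section

namespace Vale.Agent.P207.N4.H478

open Vale.Agent.P207.N3 Vale.Agent.P207.N3.H646
open Vale.Agent.P207.N4 Vale.Agent.P207.N4.H646 Vale.Agent.P207.N4.H77 Vale.Agent.P207.N4.H709

variable [Dim]

variable {Γ X B : Type} [Group Γ] [MetricSpace X] [ProperSpace X] [MulAction Γ X]
  [IsIsometricSMul Γ X] [TopologicalSpace B] [CompactSpace B] [T2Space B] [MulAction Γ B]
  [ContinuousConstSMul Γ B] [MeasurableSpace B] [BorelSpace B]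

variable {L : Leaf Γ X B}

/-- the pinching with a larger constant -/
theorem relK_mono {M : Metr L} {ρ ρ' : ℝ} (hρ : 1 ≤ ρ) (h : ρ ≤ ρ')
    (hK : ∀ x, ∃ c : ℝ, 0 < c ∧ ∀ v, c * ‖v‖ ^ 2 ≤ -inner ℝ (M.K x v) v ∧
      -inner ℝ (M.K x v) v ≤ ρ ^ 2 * c * ‖v‖ ^ 2) :
    ∀ x, ∃ c : ℝ, 0 < c ∧ ∀ v, c * ‖v‖ ^ 2 ≤ -inner ℝ (M.K x v) v ∧
      -inner ℝ (M.K x v) v ≤ ρ' ^ 2 * c * ‖v‖ ^ 2 := by
  intro x
  obtain ⟨c, hc, h1⟩ := hK x
  refine ⟨c, hc, fun v => ⟨(h1 v).1, (h1 v).2.trans ?_⟩⟩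
  gcongr

/-- **the rates from pointwise pinching and the determinant** -/
theorem det_ratesK (M : Metr L) (A : Area L) {a b ρ : ℝ} (ha : 0 < a)
    (hlo : ∀ x v, a * ‖v‖ ^ 2 ≤ inner ℝ (M.U x v) v)
    (hhi : ∀ x v, inner ℝ (M.U x v) v ≤ b * ‖v‖ ^ 2) (hρ : 1 ≤ ρ)
    (hk : ((Dim.m : ℝ) - 1) * (ρ ^ 2 - 2) < ρ)
    (hK : ∀ x, ∃ c : ℝ, 0 < c ∧ ∀ v, c * ‖v‖ ^ 2 ≤ -inner ℝ (M.K x v) v ∧
      -inner ℝ (M.K x v) v ≤ ρ ^ 2 * c * ‖v‖ ^ 2) :
    ∃ a' b' sl T : ℝ, 0 < a' ∧ a' ≤ b' ∧ b' < 2 * a' ∧ 0 < sl ∧ 0 < T ∧ ∀ t, T ≤ t → ∀ x v,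
      Real.exp ((a' + sl) * t) * ‖v‖ ≤ ‖Dt L t x v‖ ∧
      ‖Dt L t x v‖ ≤ Real.exp ((b' - sl) * t) * ‖v‖ := by
  obtain ⟨x₀⟩ := L.nonempty
  obtain ⟨v₀, hv₀⟩ := exists_ne (0 : E2)
  obtain ⟨n, hn⟩ : ∃ n, Dim.m = n + 1 := ⟨Dim.m - 1, by have := Dim.two_le; omega⟩
  have hfin : finrank ℝ E2 = n + 1 := by rw [finrank_euclideanSpace_fin, hn]
  have hm : (Dim.m : ℝ) = n + 1 := by rw [hn]; push_cast; ring
  -- a number `ρ' > ρ` with the same condition
  obtain ⟨ρ', hρ', hρ1, hk'⟩ : ∃ ρ' : ℝ, ρ ≤ ρ' ∧ 1 < ρ' ∧ (n : ℝ) * (ρ' ^ 2 - 2) < ρ' := by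
    have h1 : ContinuousAt (fun r : ℝ => (n : ℝ) * (r ^ 2 - 2) - r) ρ := by fun_prop
    have h2 : (n : ℝ) * (ρ ^ 2 - 2) - ρ < 0 := by
      rw [hm] at hk
      linarith
    have h3 := h1.eventually (gt_mem_nhds h2)
    obtain ⟨ε, hε, h4⟩ := Metric.eventually_nhds_iff.1 h3
    refine ⟨ρ + ε / 2, by linarith, by linarith, ?_⟩
    have h5 := h4 (y := ρ + ε / 2) (by
      rw [Real.dist_eq, add_sub_cancel_left, abs_of_pos (by linarith)]
      linarith)
    linarith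
  have hn0 : (0 : ℝ) ≤ n := Nat.cast_nonneg n
  obtain ⟨C, hC, hrat⟩ := log_ratio M ha hlo hhi hρ1 (relK_mono hρ hρ' hK)
  obtain ⟨D₁, D₂, hD₁, hD₂, hdet⟩ := det_bounds A
  have hh := A.h_pos
  set h := A.h with hh'
  have hρ0 : 0 < ρ' := by linarith
  -- the logarithm of the growth of one vector
  have hup : ∀ t, 0 ≤ t → ∀ x v, v ≠ 0 → Real.log (‖Dt L t x v‖ / ‖v‖) * (n + ρ') ≤
      ρ' * (h * t) + (ρ' * Real.log D₂ + n * C) := by
    intro t ht x v hv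
    have hvp : 0 < ‖v‖ := norm_pos_iff.2 hv
    have hDp : 0 < ‖Dt L t x v‖ := norm_pos_iff.2 (H478.Dt_ne t x hv)
    set l := Real.log (‖Dt L t x v‖ / ‖v‖) with hl
    set κ : ℝ := Real.exp ((l - C) / ρ') with hκ
    have h1 : ∀ w, κ * ‖w‖ ≤ ‖Dt L t x w‖ := by
      intro w
      rcases eq_or_ne w 0 with rfl | hw
      · simp
      · have hwp : 0 < ‖w‖ := norm_pos_iff.2 hw
        have hDw : 0 < ‖Dt L t x w‖ := norm_pos_iff.2 (H478.Dt_ne t x hw)
        have h2 := hrat x t ht v w hv hw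
        have h3 : (l - C) / ρ' ≤ Real.log (‖Dt L t x w‖ / ‖w‖) := by
          rw [div_le_iff₀ hρ0]
          linarith
        have h4 : κ ≤ ‖Dt L t x w‖ / ‖w‖ := by
          rw [hκ, ← Real.le_log_iff_exp_le (by positivity)]
          exact h3
        rwa [le_div_iff₀ hwp] at h4
    have h5 := norm_le_det hfin (Real.exp_pos _) h1 v
    have h6 := (hdet t x).2
    have h7 : κ ^ n * (‖Dt L t x v‖ / ‖v‖) ≤ D₂ * Real.exp (h * t) := by
      have h8 : κ ^ n * ‖Dt L t x v‖ ≤ D₂ * Real.exp (h * t) * ‖v‖ :=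
        h5.trans (mul_le_mul_of_nonneg_right h6 hvp.le)
      rw [← mul_div_assoc, div_le_iff₀ hvp]
      exact h8
    have h8 := Real.log_le_log (by positivity) h7
    rw [Real.log_mul (by positivity) (by positivity), Real.log_mul hD₂.ne' (Real.exp_pos _).ne',
      Real.log_pow, Real.log_exp, Real.log_exp, ← hl] at h8
    have h9 : ρ' * (n * ((l - C) / ρ') + l) ≤ ρ' * (Real.log D₂ + h * t) :=
      mul_le_mul_of_nonneg_left h8 hρ0.le
    have h10 : ρ' * (n * ((l - C) / ρ') + l) = l * (n + ρ') - n * C := by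
      field_simp
      ring
    rw [h10] at h9
    linarith
  have hlow : ∀ t, 0 ≤ t → ∀ x v, v ≠ 0 → h * t + (Real.log D₁ - n * C) ≤
      Real.log (‖Dt L t x v‖ / ‖v‖) * (ρ' * n + 1) := by
    intro t ht x v hv
    have hvp : 0 < ‖v‖ := norm_pos_iff.2 hv
    have hDp : 0 < ‖Dt L t x v‖ := norm_pos_iff.2 (H478.Dt_ne t x hv)
    set l := Real.log (‖Dt L t x v‖ / ‖v‖) with hl
    set κ : ℝ := Real.exp (ρ' * l + C) with hκ
    have h1 : ∀ w, ‖Dt L t x w‖ ≤ κ * ‖w‖ := by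
      intro w
      rcases eq_or_ne w 0 with rfl | hw
      · simp
      · have hwp : 0 < ‖w‖ := norm_pos_iff.2 hw
        have hDw : 0 < ‖Dt L t x w‖ := norm_pos_iff.2 (H478.Dt_ne t x hw)
        have h2 := hrat x t ht w v hw hv
        have h4 : ‖Dt L t x w‖ / ‖w‖ ≤ κ := by
          rw [hκ, ← Real.log_le_iff_le_exp (by positivity)]
          exact h2
        rwa [div_le_iff₀ hwp] at h4
    have h5 := abs_det_le hfin h1 v
    have h6 := (hdet t x).1
    have h7 : D₁ * Real.exp (h * t) ≤ κ ^ n * (‖Dt L t x v‖ / ‖v‖) := by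
      rw [← mul_div_assoc, le_div_iff₀ hvp]
      exact (mul_le_mul_of_nonneg_right h6 hvp.le).trans h5
    have h8 := Real.log_le_log (by positivity) h7
    rw [Real.log_mul hD₁.ne' (Real.exp_pos _).ne', Real.log_mul (by positivity) (by positivity),
      Real.log_pow, Real.log_exp, Real.log_exp, ← hl] at h8
    nlinarith
  -- the two rates
  have hcond : ρ' * h / (n + ρ') < 2 * (h / (ρ' * n + 1)) := by
    rw [← mul_div_assoc, div_lt_div_iff₀ (by positivity) (by positivity)]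
    have h1 : ρ' * (ρ' * n + 1) < 2 * (n + ρ') := by nlinarith
    nlinarith [mul_lt_mul_of_pos_left h1 hh]
  obtain ⟨b₁, hb1, hb2⟩ := exists_between hcond
  obtain ⟨a₁, ha1, ha2⟩ : ∃ a₁, b₁ / 2 < a₁ ∧ a₁ < h / (ρ' * n + 1) :=
    exists_between (by linarith)
  have hb0 : 0 < ρ' * h / (n + ρ') := by positivity
  -- the times
  obtain ⟨T₁, hT₁, h1⟩ := exists_time (Real.exp ((ρ' * Real.log D₂ + n * C) / (n + ρ')))
    (show 0 < b₁ - ρ' * h / (n + ρ') by linarith)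
  obtain ⟨T₂, hT₂, h2⟩ := exists_time (Real.exp (-(Real.log D₁ - n * C) / (ρ' * n + 1)))
    (show 0 < h / (ρ' * n + 1) - a₁ by linarith)
  have hrate : ∀ t, max T₁ T₂ ≤ t → ∀ x v, Real.exp (a₁ * t) * ‖v‖ ≤ ‖Dt L t x v‖ ∧
      ‖Dt L t x v‖ ≤ Real.exp (b₁ * t) * ‖v‖ := by
    intro t ht x v
    have ht1 : T₁ ≤ t := (le_max_left _ _).trans ht
    have ht2 : T₂ ≤ t := (le_max_right _ _).trans ht
    have ht0 : 0 ≤ t := by linarith
    rcases eq_or_ne v 0 with rfl | hv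
    · simp
    have hvp : 0 < ‖v‖ := norm_pos_iff.2 hv
    have hDp : 0 < ‖Dt L t x v‖ := norm_pos_iff.2 (H478.Dt_ne t x hv)
    set l := Real.log (‖Dt L t x v‖ / ‖v‖) with hl
    have k1 := hup t ht0 x v hv
    have k2 := hlow t ht0 x v hv
    rw [← hl] at k1 k2
    have k3 := Real.exp_le_exp.1 (h1 t ht1)
    have k4 := Real.exp_le_exp.1 (h2 t ht2)
    have k5 : l ≤ b₁ * t := by
      have k6 : l ≤ (ρ' * (h * t) + (ρ' * Real.log D₂ + n * C)) / (n + ρ') := by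
        rw [le_div_iff₀ (by positivity)]
        exact k1
      have k7 : (ρ' * (h * t) + (ρ' * Real.log D₂ + n * C)) / (n + ρ') =
          ρ' * h / (n + ρ') * t + (ρ' * Real.log D₂ + n * C) / (n + ρ') := by
        rw [add_div]
        congr 1
        ring
      rw [k7] at k6
      linarith
    have k8 : a₁ * t ≤ l := by
      have k6 : (h * t + (Real.log D₁ - n * C)) / (ρ' * n + 1) ≤ l := by
        rw [div_le_iff₀ (by positivity)]
        exact k2
      have k7 : (h * t + (Real.log D₁ - n * C)) / (ρ' * n + 1) =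
          h / (ρ' * n + 1) * t - -(Real.log D₁ - n * C) / (ρ' * n + 1) := by
        rw [add_div]
        ring
      rw [k7] at k6
      linarith
    constructor
    · have k9 : Real.exp (a₁ * t) ≤ ‖Dt L t x v‖ / ‖v‖ := by
        rw [← Real.le_log_iff_exp_le (by positivity)]
        exact k8
      rwa [le_div_iff₀ hvp] at k9
    · have k9 : ‖Dt L t x v‖ / ‖v‖ ≤ Real.exp (b₁ * t) := by
        rw [← Real.log_le_iff_le_exp (by positivity)]
        exact k5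
      rwa [div_le_iff₀ hvp] at k9
  have hT : 0 < max T₁ T₂ := lt_max_of_lt_left hT₁
  have hab : a₁ ≤ b₁ := by
    have h5 := (hrate _ le_rfl x₀ v₀).1.trans (hrate _ le_rfl x₀ v₀).2
    have h6 := le_of_mul_le_mul_right h5 (norm_pos_iff.2 hv₀)
    have h7 := Real.exp_le_exp.1 h6
    exact le_of_mul_le_mul_right h7 hT
  obtain ⟨ε, e1, e2⟩ := exists_between (show 0 < (2 * a₁ - b₁) / 3 by linarith)
  refine ⟨a₁ - ε, b₁ + ε, ε, max T₁ T₂, by linarith, by linarith, by linarith, e1, hT,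
    fun t ht x v => ?_⟩
  rw [sub_add_cancel, add_sub_cancel_right]
  exact hrate t ht x v

end Vale.Agent.P207.N4.H478
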