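import Mathlib

/-!
# P207: the Lyapunov function of two scalar Riccati inequalities

If `m' ≥ c - m²` and `M' ≤ ρ² c - M²`, `c ≥ 0`, then `M - ρ m ≤ Φ'` for the function `Φ = Phi ρ m M`.
-/

open Real Set

noncomputable section

namespace Vale.Agent.P207.N4.H478

/-- Bernoulli -/
theorem bern {ρ z : ℝ} (hρ : 1 < ρ) (hz : 0 < z) :
    (ρ * z - 1) / (ρ - 1) ≤ z ^ (ρ / (ρ - 1)) := by
  have hd : 0 < ρ - 1 := by linarith
  have hq : 1 ≤ ρ / (ρ - 1) := by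
    rw [le_div_iff₀ hd]
    linarith
  have h := one_add_mul_self_le_rpow_one_add (s := z - 1) (by linarith) hq
  have h2 : (1 + (z - 1)) = z := by ring
  rw [h2] at h
  refine le_trans (le_of_eq ?_) h
  field_simp
  ring

theorem ineq2 {ρ z : ℝ} (hρ : 1 < ρ) (hz : 0 < z) :
    2 * ρ * z - ρ - 1 ≤ z ^ (ρ / (ρ - 1)) * (ρ * z - 1) := by
  have hd : 0 < ρ - 1 := by linarith
  have hb := bern hρ hz
  have hw0 : 0 < z ^ (ρ / (ρ - 1)) := rpow_pos_of_pos hz _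
  have hq : 0 ≤ ρ / (ρ - 1) := by positivity
  rcases le_total 1 (ρ * z) with h | h
  · have h1 : (ρ * z - 1) / (ρ - 1) * (ρ * z - 1) ≤ z ^ (ρ / (ρ - 1)) * (ρ * z - 1) :=
      mul_le_mul_of_nonneg_right hb (by linarith)
    have h2 : 2 * ρ * z - ρ - 1 ≤ (ρ * z - 1) / (ρ - 1) * (ρ * z - 1) := by
      rw [div_mul_eq_mul_div, le_div_iff₀ hd]
      nlinarith [sq_nonneg (ρ * z - 1 - (ρ - 1))]
    linarith
  · have hz1 : z ≤ 1 := by nlinarith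
    have hw1 : z ^ (ρ / (ρ - 1)) ≤ 1 := rpow_le_one hz.le hz1 hq
    have h3 : z ^ (ρ / (ρ - 1)) * (1 - ρ * z) ≤ 1 * (1 - ρ * z) :=
      mul_le_mul_of_nonneg_right hw1 (by linarith)
    nlinarith

theorem ineq1 {ρ z : ℝ} (hρ : 1 < ρ) (hz : 0 < z) :
    z ^ (ρ / (ρ - 1)) * (ρ - z) ≤ (ρ - 1) * z := by
  have hd : 0 < ρ - 1 := by linarith
  have hb := bern hρ (inv_pos.2 hz)
  rw [inv_rpow hz.le] at hb
  have hw0 : 0 < z ^ (ρ / (ρ - 1)) := rpow_pos_of_pos hz _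
  set w := z ^ (ρ / (ρ - 1)) with hw
  rw [div_le_iff₀ hd] at hb
  have h1 : (ρ * z⁻¹ - 1) * w ≤ ρ - 1 := by
    calc (ρ * z⁻¹ - 1) * w ≤ (w⁻¹ * (ρ - 1)) * w := by gcongr
      _ = ρ - 1 := by field_simp
  calc w * (ρ - z) = ((ρ * z⁻¹ - 1) * w) * z := by field_simp
    _ ≤ (ρ - 1) * z := by gcongr

/-- the Lyapunov function -/
def Phi (ρ m M : ℝ) : ℝ :=
  (ρ - 1) / 2 * Real.log m - (ρ - 1) / (2 * ρ) * (M / (ρ * m)) ^ (ρ / (ρ - 1))

theorem hasDerivAt_Phi {ρ : ℝ} (hρ : 1 < ρ) {m M : ℝ → ℝ} {m' M' t : ℝ} (hm : HasDerivAt m m' t)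
    (hM : HasDerivAt M M' t) (hm0 : 0 < m t) (hM0 : 0 < M t) :
    HasDerivAt (fun s => Phi ρ (m s) (M s))
      (m' / m t * ((ρ - 1 + (M t / (ρ * m t)) ^ (ρ / (ρ - 1))) / 2) -
        (M t / (ρ * m t)) ^ (ρ / (ρ - 1)) * (M' / (2 * M t))) t := by
  have hd : 0 < ρ - 1 := by linarith
  have hρ0 : 0 < ρ := by linarith
  have hz : 0 < M t / (ρ * m t) := by positivity
  have h1 : HasDerivAt (fun s => M s / (ρ * m s))
      ((M' * (ρ * m t) - M t * (ρ * m')) / (ρ * m t) ^ 2) t :=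
    hM.div (hm.const_mul ρ) (by positivity)
  have h2 := h1.rpow_const (p := ρ / (ρ - 1)) (Or.inl hz.ne')
  have h3 := (hm.log hm0.ne').const_mul ((ρ - 1) / 2)
  have h4 := h3.sub (h2.const_mul ((ρ - 1) / (2 * ρ)))
  refine h4.congr_deriv ?_
  rw [rpow_sub_one hz.ne']
  have hw : (0 : ℝ) < (M t / (ρ * m t)) ^ (ρ / (ρ - 1)) := rpow_pos_of_pos hz _
  generalize (M t / (ρ * m t)) ^ (ρ / (ρ - 1)) = w
  field_simp
  ring

/-- **the inequality** -/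
theorem lyap {ρ c m M m' M' : ℝ} (hρ : 1 < ρ) (hc : 0 ≤ c) (hm : 0 < m) (hM : 0 < M)
    (h1 : c - m ^ 2 ≤ m') (h2 : M' ≤ ρ ^ 2 * c - M ^ 2) :
    M - ρ * m ≤ m' / m * ((ρ - 1 + (M / (ρ * m)) ^ (ρ / (ρ - 1))) / 2) -
        (M / (ρ * m)) ^ (ρ / (ρ - 1)) * (M' / (2 * M)) := by
  have hd : 0 < ρ - 1 := by linarith
  have hρ0 : 0 < ρ := by linarith
  have hz : 0 < M / (ρ * m) := by positivity
  have i1 := ineq1 hρ hz
  have i2 := ineq2 hρ hz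
  have hw : (0 : ℝ) < (M / (ρ * m)) ^ (ρ / (ρ - 1)) := rpow_pos_of_pos hz _
  generalize (M / (ρ * m)) ^ (ρ / (ρ - 1)) = w at *
  set z := M / (ρ * m) with hzdef
  have hMz : M = ρ * m * z := by
    rw [hzdef]
    field_simp
  have e1 : (c - m ^ 2) / m * ((ρ - 1 + w) / 2) ≤ m' / m * ((ρ - 1 + w) / 2) := by gcongr
  have e2 : w * (M' / (2 * M)) ≤ w * ((ρ ^ 2 * c - M ^ 2) / (2 * M)) := by gcongr
  have e3 : (c - m ^ 2) / m * ((ρ - 1 + w) / 2) - w * ((ρ ^ 2 * c - M ^ 2) / (2 * M)) =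
      c / (2 * m * z) * ((ρ - 1) * z - w * (ρ - z)) + m / 2 * (w * (ρ * z - 1) - (ρ - 1)) := by
    rw [hMz]
    field_simp
    ring
  have e4 : 0 ≤ c / (2 * m * z) * ((ρ - 1) * z - w * (ρ - z)) :=
    mul_nonneg (by positivity) (by linarith)
  have e5 : m / 2 * (2 * ρ * z - ρ - 1 - (ρ - 1)) ≤ m / 2 * (w * (ρ * z - 1) - (ρ - 1)) := by
    gcongr
  have e6 : m / 2 * (2 * ρ * z - ρ - 1 - (ρ - 1)) = M - ρ * m := by
    rw [hMz]
    ring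
  linarith

/-- the function is bounded -/
theorem Phi_bound {ρ a b : ℝ} (hρ : 1 < ρ) (ha : 0 < a) : ∃ C : ℝ, ∀ m M : ℝ,
    a ≤ m → m ≤ b → a ≤ M → M ≤ b → |Phi ρ m M| ≤ C := by
  have hd : 0 < ρ - 1 := by linarith
  have hρ0 : 0 < ρ := by linarith
  refine ⟨(ρ - 1) / 2 * (|Real.log a| + |Real.log b|) +
    (ρ - 1) / (2 * ρ) * (b / (ρ * a)) ^ (ρ / (ρ - 1)), fun m M h1 h2 h3 h4 => ?_⟩
  have hm : 0 < m := by linarith
  have hM : 0 < M := by linarith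
  have hb : 0 ≤ b := by linarith
  have k1 : Real.log a ≤ Real.log m := Real.log_le_log ha h1
  have k2 : Real.log m ≤ Real.log b := Real.log_le_log hm h2
  have k3 : |Real.log m| ≤ |Real.log a| + |Real.log b| := by
    rw [abs_le]
    constructor
    · linarith [neg_abs_le (Real.log a), abs_nonneg (Real.log b)]
    · linarith [le_abs_self (Real.log b), abs_nonneg (Real.log a)]
  have k4 : M / (ρ * m) ≤ b / (ρ * a) := by gcongr
  have k5 : (M / (ρ * m)) ^ (ρ / (ρ - 1)) ≤ (b / (ρ * a)) ^ (ρ / (ρ - 1)) := by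
    apply rpow_le_rpow (by positivity) k4 (by positivity)
  have k6 : 0 ≤ (M / (ρ * m)) ^ (ρ / (ρ - 1)) := by positivity
  unfold Phi
  refine (abs_sub _ _).trans (add_le_add ?_ ?_)
  · rw [abs_mul, abs_of_pos (by positivity : 0 < (ρ - 1) / 2)]
    gcongr
  · rw [abs_mul, abs_of_pos (by positivity : 0 < (ρ - 1) / (2 * ρ)), abs_of_nonneg k6]
    gcongr

end Vale.Agent.P207.N4.H478
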