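import Vale.Agent.P207.N4.H478.Lyap
import Vale.Agent.P207.N4.H547.RatD

/-!
# P207: pointwise pinching and the ratio of the singular values of the unstable derivative

If `c(x) ≤ -K(x) ≤ ρ² c(x)` for the Jacobi operators `K(x)`, then the largest growth of the unstable
derivative is at most the power `ρ` of the smallest one, up to a constant.
-/

open Set Filter Topology Metric MeasureTheory
open scoped ContDiff Nat

set_option linter.unusedSectionVars false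

noncomputable section

namespace Vale.Agent.P207.N4.H478

open Vale.Agent.P207.N3 Vale.Agent.P207.N3.H646 Vale.Agent.P207.H77
open Vale.Agent.P207.N4 Vale.Agent.P207.N4.H646 Vale.Agent.P207.N4.H77
open Vale.Agent.P207.N4.H547.RatD

variable [Dim]

variable {Γ X B : Type} [Group Γ] [MetricSpace X] [ProperSpace X] [MulAction Γ X]
  [IsIsometricSMul Γ X] [TopologicalSpace B] [CompactSpace B] [T2Space B] [MulAction Γ B]
  [ContinuousConstSMul Γ B]

variable {L : Leaf Γ X B}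

/-- the transposed inverse of the unstable derivative -/
def et (L : Leaf Γ X B) (t : ℝ) (x : X) (η : E2) : E2 :=
  ContinuousLinearMap.adjoint (fderiv ℝ (L.τ (L.φ t x) x) 0) η

theorem U_star (M : Metr L) (x : X) : star (M.U x) = M.U x := by
  rw [ContinuousLinearMap.star_eq_adjoint]
  refine ContinuousLinearMap.ext fun v => ext_inner_left ℝ fun w => ?_
  rw [ContinuousLinearMap.adjoint_inner_right, M.U_symm]

theorem hasDerivAt_et (M : Metr L) (x : X) (η : E2) (t : ℝ) :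
    HasDerivAt (fun s => et L s x η) (-(M.U (L.φ t x) (et L t x η))) t := by
  have h1 := (M.jac x t).star
  have h2 := ((ContinuousLinearMap.apply ℝ E2 η).hasFDerivAt.comp_hasDerivAt t h1)
  refine h2.congr_deriv ?_
  rw [star_neg]
  have h3 : star (fderiv ℝ (L.τ (L.φ t x) x) 0 ∘L M.U (L.φ t x)) =
      M.U (L.φ t x) ∘L star (fderiv ℝ (L.τ (L.φ t x) x) 0) := by
    have h4 := star_mul (fderiv ℝ (L.τ (L.φ t x) x) 0) (M.U (L.φ t x))
    rw [U_star] at h4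
    exact h4
  rw [h3]
  rfl

theorem hasDerivAt_W (M : Metr L) (x : X) (v : E2) (t : ℝ) :
    HasDerivAt (fun s => Dt L s x v) (M.U (L.φ t x) (Dt L t x v)) t :=
  ((ContinuousLinearMap.apply ℝ E2 v).hasFDerivAt.comp_hasDerivAt t (hasDerivAt_Dt M x t))

/-- the derivative of `⟨U W, W⟩` along a curve -/
theorem hasDerivAt_UW (M : Metr L) (x : X) {W : ℝ → E2} {W' : E2} {t : ℝ}
    (hW : HasDerivAt W W' t) :
    HasDerivAt (fun s => (inner ℝ (M.U (L.φ s x) (W s)) (W s) : ℝ))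
      (inner ℝ (-(M.U (L.φ t x) (M.U (L.φ t x) (W t))) - M.K (L.φ t x) (W t)) (W t) +
        2 * inner ℝ (M.U (L.φ t x) (W t)) W') t := by
  have h1 := (M.riccati x t).clm_apply hW
  have h2 := h1.inner ℝ hW
  refine h2.congr_deriv ?_
  have h3 : (inner ℝ (M.U (L.φ t x) W') (W t) : ℝ) = inner ℝ (M.U (L.φ t x) (W t)) W' := by
    rw [M.U_symm, real_inner_comm]
  rw [inner_add_left, h3]
  simp only [_root_.sub_apply, _root_.neg_apply, ContinuousLinearMap.comp_apply]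
  ring

theorem fderiv_back (t : ℝ) (x : X) :
    fderiv ℝ (L.τ (L.φ t x) x) 0 = Dt L (-t) (L.φ t x) := by
  unfold Dt
  rw [L.φ_neg]

theorem et_zero (x : X) (η : E2) : et L 0 x η = η := by
  unfold et
  rw [fderiv_back, neg_zero, Dt_zero]
  refine ext_inner_left ℝ fun w => ?_
  rw [ContinuousLinearMap.adjoint_inner_right]
  rfl

theorem Dt_cancel (t : ℝ) (x : X) (v : E2) : Dt L t x (Dt L (-t) (L.φ t x) v) = v := by
  have h := Dt_comp_neg L t (L.φ t x)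
  rw [L.φ_neg] at h
  exact congrArg (fun A : E2 →L[ℝ] E2 => A v) h

theorem Dt_cancel' (t : ℝ) (x : X) (v : E2) : Dt L (-t) (L.φ t x) (Dt L t x v) = v :=
  congrArg (fun A : E2 →L[ℝ] E2 => A v) (Dt_neg_comp L t x)

theorem Dt_ne (t : ℝ) (x : X) {v : E2} (hv : v ≠ 0) : Dt L t x v ≠ 0 := by
  intro h
  have h1 := Dt_cancel' (L := L) t x v
  rw [h, map_zero] at h1
  exact hv h1.symm

theorem et_inner (t : ℝ) (x : X) (η v : E2) :
    (inner ℝ (et L t x η) (Dt L t x v) : ℝ) = inner ℝ η v := by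
  unfold et
  rw [ContinuousLinearMap.adjoint_inner_left, fderiv_back, Dt_cancel']

theorem et_ne (t : ℝ) (x : X) {η : E2} (hη : η ≠ 0) : et L t x η ≠ 0 := by
  intro h
  have h1 := et_inner (L := L) t x η η
  rw [h, inner_zero_left] at h1
  exact hη (inner_self_eq_zero.1 h1.symm)

theorem et_adj (t : ℝ) (x : X) (z : E2) :
    et L t x (ContinuousLinearMap.adjoint (Dt L t x) z) = z := by
  refine ext_inner_right ℝ fun w => ?_
  have h1 := et_inner (L := L) t x (ContinuousLinearMap.adjoint (Dt L t x) z)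
    (Dt L (-t) (L.φ t x) w)
  rw [Dt_cancel, ContinuousLinearMap.adjoint_inner_left, Dt_cancel] at h1
  exact h1

section curves

variable (M : Metr L)

/-- the growth rate of a vector -/
def mm (x : X) (w : E2) (t : ℝ) : ℝ :=
  inner ℝ (M.U (L.φ t x) (Dt L t x w)) (Dt L t x w) / ‖Dt L t x w‖ ^ 2

/-- the decay rate of a covector -/
def MM (x : X) (η : E2) (t : ℝ) : ℝ :=
  inner ℝ (M.U (L.φ t x) (et L t x η)) (et L t x η) / ‖et L t x η‖ ^ 2

theorem deriv_f (x : X) {w : E2} (hw : w ≠ 0) (t : ℝ) :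
    HasDerivAt (fun s => ‖Dt L s x w‖ ^ 2) (2 * mm M x w t * ‖Dt L t x w‖ ^ 2) t := by
  have h1 := (hasDerivAt_W M x w t).norm_sq
  refine h1.congr_deriv ?_
  have h2 : ‖Dt L t x w‖ ^ 2 ≠ 0 := pow_ne_zero _ (norm_ne_zero_iff.2 (Dt_ne t x hw))
  rw [mm, real_inner_comm]
  generalize ‖Dt L t x w‖ ^ 2 = N at h2 ⊢
  field_simp

theorem deriv_g (x : X) {η : E2} (hη : η ≠ 0) (t : ℝ) :
    HasDerivAt (fun s => ‖et L s x η‖ ^ 2) (-(2 * MM M x η t * ‖et L t x η‖ ^ 2)) t := by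
  have h1 := (hasDerivAt_et M x η t).norm_sq
  refine h1.congr_deriv ?_
  have h2 : ‖et L t x η‖ ^ 2 ≠ 0 := pow_ne_zero _ (norm_ne_zero_iff.2 (et_ne t x hη))
  rw [MM, inner_neg_right, real_inner_comm]
  generalize ‖et L t x η‖ ^ 2 = N at h2 ⊢
  field_simp

theorem deriv_m (x : X) {w : E2} (hw : w ≠ 0) {c : ℝ} (t : ℝ)
    (hc : ∀ v, c * ‖v‖ ^ 2 ≤ -inner ℝ (M.K (L.φ t x) v) v) :
    ∃ m', HasDerivAt (mm M x w) m' t ∧ c - mm M x w t ^ 2 ≤ m' := by
  have hf := deriv_f M x hw t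
  have hne := Dt_ne (L := L) t x hw
  have hpos : 0 < ‖Dt L t x w‖ ^ 2 := by positivity
  have h1 := hasDerivAt_UW M x (hasDerivAt_W M x w t)
  refine ⟨_, h1.div hf hpos.ne', ?_⟩
  set W := Dt L t x w with hW
  set U := M.U (L.φ t x) with hU
  set m := mm M x w t with hm
  have e1 : inner ℝ (U W) W = m * ‖W‖ ^ 2 := by
    rw [hm, mm, ← hW, ← hU, div_mul_cancel₀ _ hpos.ne']
  have e2 : (inner ℝ (-(U (U W)) - M.K (L.φ t x) W) W : ℝ) =
      -‖U W‖ ^ 2 - inner ℝ (M.K (L.φ t x) W) W := by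
    rw [inner_sub_left, inner_neg_left, M.U_symm, real_inner_self_eq_norm_sq]
  have e3 : (inner ℝ (U W) (U W) : ℝ) = ‖U W‖ ^ 2 := real_inner_self_eq_norm_sq _
  rw [e2, e3, e1]
  have h2 := hc W
  have h3 : (m * ‖W‖ ^ 2) ^ 2 ≤ ‖U W‖ ^ 2 * ‖W‖ ^ 2 := by
    rw [← e1, ← mul_pow]
    have h4 := abs_real_inner_le_norm (U W) W
    rw [← sq_abs]
    exact pow_le_pow_left₀ (abs_nonneg _) h4 2
  rw [le_div_iff₀ (by positivity)]
  set N := ‖W‖ ^ 2 with hN
  set u := ‖U W‖ ^ 2 with hu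
  set k := (inner ℝ (M.K (L.φ t x) W) W : ℝ) with hk
  have h5 : m ^ 2 * N ≤ u := by
    have h6 : (m ^ 2 * N) * N ≤ u * N := by nlinarith
    exact le_of_mul_le_mul_right h6 hpos
  have h7 : (c * N) * N ≤ (-k) * N := by gcongr
  nlinarith [mul_le_mul_of_nonneg_right h5 hpos.le]

theorem deriv_M (x : X) {η : E2} (hη : η ≠ 0) {c : ℝ} (t : ℝ)
    (hc : ∀ v, -inner ℝ (M.K (L.φ t x) v) v ≤ c * ‖v‖ ^ 2) :
    ∃ M', HasDerivAt (MM M x η) M' t ∧ M' ≤ c - MM M x η t ^ 2 := by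
  have hf := deriv_g M x hη t
  have hne := et_ne (L := L) t x hη
  have hpos : 0 < ‖et L t x η‖ ^ 2 := by positivity
  have h1 := hasDerivAt_UW M x (hasDerivAt_et M x η t)
  refine ⟨_, h1.div hf hpos.ne', ?_⟩
  set W := et L t x η with hW
  set U := M.U (L.φ t x) with hU
  set m := MM M x η t with hm
  have e1 : inner ℝ (U W) W = m * ‖W‖ ^ 2 := by
    rw [hm, MM, ← hW, ← hU, div_mul_cancel₀ _ hpos.ne']
  have e2 : (inner ℝ (-(U (U W)) - M.K (L.φ t x) W) W : ℝ) =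
      -‖U W‖ ^ 2 - inner ℝ (M.K (L.φ t x) W) W := by
    rw [inner_sub_left, inner_neg_left, M.U_symm, real_inner_self_eq_norm_sq]
  have e3 : (inner ℝ (U W) (-(U W)) : ℝ) = -‖U W‖ ^ 2 := by
    rw [inner_neg_right, real_inner_self_eq_norm_sq]
  rw [e2, e3, e1]
  have h2 := hc W
  have h3 : (m * ‖W‖ ^ 2) ^ 2 ≤ ‖U W‖ ^ 2 * ‖W‖ ^ 2 := by
    rw [← e1, ← mul_pow]
    have h4 := abs_real_inner_le_norm (U W) W
    rw [← sq_abs]
    exact pow_le_pow_left₀ (abs_nonneg _) h4 2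
  rw [div_le_iff₀ (by positivity)]
  set N := ‖W‖ ^ 2 with hN
  set u := ‖U W‖ ^ 2 with hu
  set k := (inner ℝ (M.K (L.φ t x) W) W : ℝ) with hk
  have h5 : m ^ 2 * N ≤ u := by
    have h6 : (m ^ 2 * N) * N ≤ u * N := by nlinarith
    exact le_of_mul_le_mul_right h6 hpos
  have h7 : (-k) * N ≤ (c * N) * N := by gcongr
  nlinarith [mul_le_mul_of_nonneg_right h5 hpos.le]

end curves

/-- **the ratio of the growths**, in logarithmic form -/
theorem log_ratio (M : Metr L) {a b ρ : ℝ} (ha : 0 < a)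
    (hlo : ∀ x v, a * ‖v‖ ^ 2 ≤ inner ℝ (M.U x v) v)
    (hhi : ∀ x v, inner ℝ (M.U x v) v ≤ b * ‖v‖ ^ 2) (hρ : 1 < ρ)
    (hK : ∀ x, ∃ c : ℝ, 0 < c ∧ ∀ v, c * ‖v‖ ^ 2 ≤ -inner ℝ (M.K x v) v ∧
      -inner ℝ (M.K x v) v ≤ ρ ^ 2 * c * ‖v‖ ^ 2) :
    ∃ C, 0 ≤ C ∧ ∀ x t, 0 ≤ t → ∀ v w, v ≠ 0 → w ≠ 0 →
      Real.log (‖Dt L t x v‖ / ‖v‖) ≤ ρ * Real.log (‖Dt L t x w‖ / ‖w‖) + C := by
  obtain ⟨C₀, hC₀⟩ := Phi_bound (ρ := ρ) (a := a) (b := b) hρ ha
  have hmb : ∀ x w t, w ≠ 0 → a ≤ mm M x w t ∧ mm M x w t ≤ b := by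
    intro x w t hw
    have hne := Dt_ne (L := L) t x hw
    have hpos : 0 < ‖Dt L t x w‖ ^ 2 := by positivity
    unfold mm
    rw [le_div_iff₀ hpos, div_le_iff₀ hpos]
    exact ⟨hlo _ _, hhi _ _⟩
  have hMb : ∀ x η t, η ≠ 0 → a ≤ MM M x η t ∧ MM M x η t ≤ b := by
    intro x w t hw
    have hne := et_ne (L := L) t x hw
    have hpos : 0 < ‖et L t x w‖ ^ 2 := by positivity
    unfold MM
    rw [le_div_iff₀ hpos, div_le_iff₀ hpos]
    exact ⟨hlo _ _, hhi _ _⟩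
  have key : ∀ x t, 0 ≤ t → ∀ η w, η ≠ 0 → w ≠ 0 →
      Real.log ‖η‖ - Real.log ‖et L t x η‖ ≤
        ρ * (Real.log ‖Dt L t x w‖ - Real.log ‖w‖) + 2 * C₀ := by
    intro x t ht η w hη hw
    have hH : Antitone fun s => -(1 / 2) * Real.log (‖et L s x η‖ ^ 2) -
        ρ / 2 * Real.log (‖Dt L s x w‖ ^ 2) - Phi ρ (mm M x w s) (MM M x η s) := by
      have hd : ∀ s, ∃ d, HasDerivAt (fun s => -(1 / 2) * Real.log (‖et L s x η‖ ^ 2) -
          ρ / 2 * Real.log (‖Dt L s x w‖ ^ 2) - Phi ρ (mm M x w s) (MM M x η s)) d s ∧ d ≤ 0 := by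
        intro s
        obtain ⟨c, hc, hc'⟩ := hK (L.φ s x)
        obtain ⟨m', hm', hm''⟩ := deriv_m M x hw s fun v => (hc' v).1
        obtain ⟨M', hM', hM''⟩ := deriv_M M x hη s fun v => (hc' v).2
        have p1 : 0 < mm M x w s := ha.trans_le (hmb x w s hw).1
        have p2 : 0 < MM M x η s := ha.trans_le (hMb x η s hη).1
        have n1 : ‖et L s x η‖ ^ 2 ≠ 0 := pow_ne_zero _ (norm_ne_zero_iff.2 (et_ne s x hη))
        have n2 : ‖Dt L s x w‖ ^ 2 ≠ 0 := pow_ne_zero _ (norm_ne_zero_iff.2 (Dt_ne s x hw))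
        have h1 := ((deriv_g M x hη s).log n1).const_mul (-(1 / 2))
        have h2 := ((deriv_f M x hw s).log n2).const_mul (ρ / 2)
        have h3 := hasDerivAt_Phi hρ hm' hM' p1 p2
        refine ⟨_, (h1.sub h2).sub h3, ?_⟩
        have h4 := lyap hρ hc.le p1 p2 hm'' hM''
        have e1 : -(1 / 2) * (-(2 * MM M x η s * ‖et L s x η‖ ^ 2) / ‖et L s x η‖ ^ 2) =
            MM M x η s := by
          clear h1 h2 h3
          generalize ‖et L s x η‖ ^ 2 = N at n1 ⊢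
          field_simp
        have e2 : ρ / 2 * (2 * mm M x w s * ‖Dt L s x w‖ ^ 2 / ‖Dt L s x w‖ ^ 2) =
            ρ * mm M x w s := by
          clear h1 h2 h3
          generalize ‖Dt L s x w‖ ^ 2 = N at n2 ⊢
          field_simp
        rw [e1, e2]
        linarith
      refine antitone_of_deriv_nonpos (fun s => ?_) fun s => ?_
      · obtain ⟨d, h1, -⟩ := hd s
        exact h1.differentiableAt
      · obtain ⟨d, h1, h2⟩ := hd s
        rw [h1.deriv]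
        exact h2
    have h1 := hH ht
    simp only [et_zero, Dt_zero, Real.log_pow, ContinuousLinearMap.coe_id', id_eq] at h1
    have h2 := abs_le.1 (hC₀ _ _ (hmb x w t hw).1 (hmb x w t hw).2 (hMb x η t hη).1
      (hMb x η t hη).2)
    have h3 := abs_le.1 (hC₀ _ _ (hmb x w 0 hw).1 (hmb x w 0 hw).2 (hMb x η 0 hη).1
      (hMb x η 0 hη).2)
    push_cast at h1
    nlinarith [h2.1, h2.2, h3.1, h3.2]
  have hC0 : 0 ≤ C₀ := by
    obtain ⟨x₀⟩ := L.nonempty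
    obtain ⟨v₀, hv₀⟩ := exists_ne (0 : E2)
    exact (abs_nonneg _).trans (hC₀ _ _ (hmb x₀ v₀ 0 hv₀).1 (hmb x₀ v₀ 0 hv₀).2
      (hmb x₀ v₀ 0 hv₀).1 (hmb x₀ v₀ 0 hv₀).2)
  refine ⟨2 * C₀, by linarith, fun x t ht v w hv hw => ?_⟩
  set z := Dt L t x v with hz
  have hz0 : z ≠ 0 := Dt_ne t x hv
  set η := ContinuousLinearMap.adjoint (Dt L t x) z with hηd
  have h1 : ‖z‖ ^ 2 ≤ ‖η‖ * ‖v‖ := by
    have h2 : (inner ℝ η v : ℝ) = ‖z‖ ^ 2 := by
      rw [hηd, ContinuousLinearMap.adjoint_inner_left, ← hz, real_inner_self_eq_norm_sq]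
    rw [← h2]
    exact real_inner_le_norm _ _
  have hzp : 0 < ‖z‖ := norm_pos_iff.2 hz0
  have hvp : 0 < ‖v‖ := norm_pos_iff.2 hv
  have hη0 : η ≠ 0 := by
    intro h
    rw [h, norm_zero, zero_mul] at h1
    nlinarith
  have hηp : 0 < ‖η‖ := norm_pos_iff.2 hη0
  have h2 := key x t ht η w hη0 hw
  rw [hηd, et_adj, ← hηd] at h2
  have h3 : Real.log (‖z‖ / ‖v‖) ≤ Real.log ‖η‖ - Real.log ‖z‖ := by
    rw [← Real.log_div hηp.ne' hzp.ne']
    refine Real.log_le_log (by positivity) ?_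
    rw [div_le_div_iff₀ hvp hzp]
    nlinarith
  have h4 : Real.log (‖Dt L t x w‖ / ‖w‖) = Real.log ‖Dt L t x w‖ - Real.log ‖w‖ :=
    Real.log_div (norm_ne_zero_iff.2 (Dt_ne t x hw)) (norm_ne_zero_iff.2 hw)
  rw [h4]
  linarith

end Vale.Agent.P207.N4.H478
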